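import Vale.Agent.Lib.P154B.Fast2

/-!
The child polynomial assembled row by row: a plan lists for each row the columns and the indices of the
representatives, so that the big numbers built on the way are few.  The plan is compared once with the six images of
the representatives.
-/

noncomputable section

namespace Vale.Agent.Lib.P154B

/-- One row of the child polynomial: pairs of a column and the index of a representative; `M = 2 ^ P`. -/
def rowVal (b S M st : ℕ) (l : List (ℕ × ℕ)) : ℕ :=
  List.rec 0 (fun a _ ih => Prod.rec (fun i k =>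
    Nat.add (Nat.shiftLeft (Nat.mod (Nat.shiftRight st (Nat.mul S k)) M) (Nat.mul b i)) ih) a) l

/-- All the rows, the first one in the lowest position. -/
def rowsVal (b N S M st : ℕ) (rows : List (List (ℕ × ℕ))) : ℕ :=
  List.rec 0 (fun l _ ih => Nat.add (rowVal b S M st l) (Nat.shiftLeft ih (Nat.mul b N))) rows

/-- The six images of the representatives: index, column, row. -/
def repAtoms : ℕ → List Trip → List (ℕ × ℕ × ℕ)
  | _, [] => []
  | k, x :: xs => (k, x.2.1, x.2.2) :: (k, x.2.2, x.2.1) :: (k, x.1, x.2.2) :: (k, x.2.2, x.1) :: (k, x.1, x.2.1)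
      :: (k, x.2.1, x.1) :: repAtoms (k + 1) xs

/-- The atoms of a plan. -/
def planAtoms : ℕ → List (List (ℕ × ℕ)) → List (ℕ × ℕ × ℕ)
  | _, [] => []
  | j, l :: rows => l.map (fun a => (a.2, a.1, j)) ++ planAtoms (j + 1) rows

/-- The order used to compare two lists of atoms; nothing depends on its meaning. -/
def leA (a c : ℕ × ℕ × ℕ) : Bool :=
  Nat.blt a.1 c.1 || (Nat.beq a.1 c.1 && (Nat.blt a.2.1 c.2.1 || (Nat.beq a.2.1 c.2.1 && Nat.ble a.2.2 c.2.2)))

/-- Merge of two lists, with fuel. -/
def mergeA : ℕ → List (ℕ × ℕ × ℕ) → List (ℕ × ℕ × ℕ) → List (ℕ × ℕ × ℕ)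
  | 0, l, r => l ++ r
  | _ + 1, [], r => r
  | _ + 1, l, [] => l
  | f + 1, a :: l, c :: r =>
    bif leA a c then a :: mergeA f l (c :: r) else c :: mergeA f (a :: l) r

/-- Elements at the odd places. -/
def oddA : List (ℕ × ℕ × ℕ) → List (ℕ × ℕ × ℕ)
  | [] => []
  | [a] => [a]
  | a :: _ :: l => a :: oddA l

/-- Elements at the even places. -/
def evenA : List (ℕ × ℕ × ℕ) → List (ℕ × ℕ × ℕ)
  | [] => []
  | [_] => []
  | _ :: c :: l => c :: evenA l

/-- Merge sort, with fuel for the depth; the fuel of the merges is fixed. -/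
def sortA : ℕ → List (ℕ × ℕ × ℕ) → List (ℕ × ℕ × ℕ)
  | 0, l => l
  | f + 1, l => mergeA 100000 (sortA f (oddA l)) (sortA f (evenA l))

/-- Equality of lists of atoms. -/
def eqA : List (ℕ × ℕ × ℕ) → List (ℕ × ℕ × ℕ) → Bool
  | [], [] => true
  | a :: l, c :: r => Nat.beq a.1 c.1 && Nat.beq a.2.1 c.2.1 && Nat.beq a.2.2 c.2.2 && eqA l r
  | _, _ => false

/-- The check of a plan. -/
def planOK (ks : List Trip) (rows : List (List (ℕ × ℕ))) : Bool :=
  eqA (sortA 13 (repAtoms 0 ks)) (sortA 13 (planAtoms 0 rows))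

theorem perm_mergeA (f : ℕ) (l r : List (ℕ × ℕ × ℕ)) : (mergeA f l r).Perm (l ++ r) := by
  induction f generalizing l r with
  | zero => exact List.Perm.refl _
  | succ f ih =>
    cases l with
    | nil => simp [mergeA]
    | cons a l =>
      cases r with
      | nil => simp [mergeA]
      | cons c r =>
        unfold mergeA
        cases leA a c with
        | true => exact (ih l (c :: r)).cons a
        | false =>
          refine ((ih (a :: l) r).cons c).trans ?_
          exact (List.perm_middle (a := c) (l₁ := a :: l) (l₂ := r)).symm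

theorem perm_odd_even : ∀ l : List (ℕ × ℕ × ℕ), (oddA l ++ evenA l).Perm l
  | [] => List.Perm.refl _
  | [a] => List.Perm.refl _
  | a :: c :: l => by
    have h := perm_odd_even l
    simp only [oddA, evenA, List.cons_append]
    refine List.Perm.cons a ?_
    refine (List.perm_middle (a := c) (l₁ := oddA l) (l₂ := evenA l)).trans ?_
    exact h.cons c

theorem perm_sortA (f : ℕ) (l : List (ℕ × ℕ × ℕ)) : (sortA f l).Perm l := by
  induction f generalizing l with
  | zero => exact List.Perm.refl _
  | succ f ih =>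
    unfold sortA
    refine (perm_mergeA _ _ _).trans ?_
    exact ((ih _).append (ih _)).trans (perm_odd_even l)

theorem eqA_eq : ∀ {l r : List (ℕ × ℕ × ℕ)}, eqA l r = true → l = r
  | [], [], _ => rfl
  | a :: l, c :: r, h => by
    unfold eqA at h
    simp only [Bool.and_eq_true] at h
    obtain ⟨⟨⟨h1, h2⟩, h3⟩, h4⟩ := h
    have e1 := Nat.eq_of_beq_eq_true h1
    have e2 := Nat.eq_of_beq_eq_true h2
    have e3 := Nat.eq_of_beq_eq_true h3
    rw [eqA_eq h4]
    obtain ⟨a1, a2, a3⟩ := a
    obtain ⟨c1, c2, c3⟩ := c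
    simp only at e1 e2 e3
    rw [e1, e2, e3]
  | [], _ :: _, h => by simp [eqA] at h
  | _ :: _, [], h => by simp [eqA] at h

theorem perm_of_planOK {ks : List Trip} {rows : List (List (ℕ × ℕ))} (h : planOK ks rows = true) :
    (repAtoms 0 ks).Perm (planAtoms 0 rows) := by
  have e := eqA_eq h
  exact (perm_sortA _ _).symm.trans ((List.Perm.of_eq e).trans (perm_sortA _ _))

/-- The value of an atom. -/
def atomV (b N S P st : ℕ) (a : ℕ × ℕ × ℕ) : ℕ := dig S P st a.1 * 2 ^ (b * (a.2.1 + N * a.2.2))

theorem natC_repAtoms (b N S P st k : ℕ) (ks : List Trip) :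
    natC b N (kcOf S P st k ks) = ((repAtoms k ks).map (atomV b N S P st)).sum := by
  induction ks generalizing k with
  | nil => simp [natC, kcOf, repAtoms]
  | cons x xs ih =>
    have h := ih (k + 1)
    unfold natC at h ⊢
    simp only [kcOf, repAtoms, List.map_cons, List.sum_cons]
    rw [h]
    unfold patt atomV
    simp only
    ring

theorem rowVal_eq (b S P st j N : ℕ) (l : List (ℕ × ℕ)) :
    2 ^ (b * N * j) * rowVal b S (2 ^ P) st l
      = ((l.map (fun a => (a.2, a.1, j))).map (atomV b N S P st)).sum := by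
  induction l with
  | nil => rfl
  | cons a l ih =>
    obtain ⟨i, k⟩ := a
    have e : rowVal b S (2 ^ P) st ((i, k) :: l)
        = ((st >>> (S * k)) % 2 ^ P) <<< (b * i) + rowVal b S (2 ^ P) st l := rfl
    rw [e, mul_add, ih]
    simp only [List.map_cons, List.sum_cons]
    congr 1
    unfold atomV dig
    simp only
    rw [Nat.shiftLeft_eq]
    have e2 : b * (i + N * j) = b * i + b * N * j := by ring
    rw [e2, pow_add]
    ring

theorem rowsVal_eq (b N S P st : ℕ) (rows : List (List (ℕ × ℕ))) (j : ℕ) :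
    2 ^ (b * N * j) * rowsVal b N S (2 ^ P) st rows = ((planAtoms j rows).map (atomV b N S P st)).sum := by
  induction rows generalizing j with
  | nil => simp [rowsVal, planAtoms]
  | cons l rows ih =>
    have e : rowsVal b N S (2 ^ P) st (l :: rows)
        = rowVal b S (2 ^ P) st l + rowsVal b N S (2 ^ P) st rows <<< (b * N) := rfl
    simp only [planAtoms, List.map_append, List.sum_append]
    rw [e, mul_add, rowVal_eq b S P st j N l, ← ih (j + 1), Nat.shiftLeft_eq]
    congr 1
    have e2 : b * N * (j + 1) = b * N * j + b * N := by ring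
    rw [e2, pow_add]
    ring

/-- The child polynomial from a checked plan. -/
theorem rowsVal_natC {ks : List Trip} {rows : List (List (ℕ × ℕ))} (h : planOK ks rows = true) (b N S P st : ℕ) :
    rowsVal b N S (2 ^ P) st rows = natC b N (kcOf S P st 0 ks) := by
  rw [natC_repAtoms, ((perm_of_planOK h).map _).sum_eq]
  have := rowsVal_eq b N S P st rows 0
  simpa using this

/-- The parent polynomials from a plan. -/
def Phase.parentR (ph : Phase) (rows : List (List (ℕ × ℕ))) (st : ℕ) : ℕ × ℕ :=
  hornerNat ph.T.par (maskNum ph.T.par) (rowsVal ph.T.par.b ph.T.par.N ph.S₀ (Nat.pow 2 ph.T.par.P) st rows)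
    (dig ph.S₀ ph.T.par.P st ph.ks₀.length) ph.qs

theorem Phase.parentR_eq {ph : Phase} {rows : List (List (ℕ × ℕ))} (h : planOK ph.ks₀ rows = true) (st : ℕ) :
    ph.parentR rows st = ph.parent st := by
  unfold Phase.parentR Phase.parent
  have e : Nat.pow 2 ph.T.par.P = 2 ^ ph.T.par.P := rfl
  rw [e, rowsVal_natC h]

/-- One level from a plan and grouped records. -/
def Phase.stepH (ph : Phase) (gl ge : List Grp) (rows : List (List (ℕ × ℕ))) (st : ℕ) : ℕ :=
  nextG ph.T.par ph.T.S ph.T.Q gl ge ph.T.hv (ph.parentR rows st).1 (ph.parentR rows st).2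

/-- Iteration. -/
def iterH (ph : Phase) (gl ge : List Grp) (rows : List (List (ℕ × ℕ))) (k s : ℕ) : ℕ :=
  Nat.rec (motive := fun _ => ℕ → ℕ) (fun s => s) (fun _ ih s => ih (ph.stepH gl ge rows s)) k s

theorem iterH_eq {ph : Phase} (gl ge : List Grp) {rows : List (List (ℕ × ℕ))} (h : planOK ph.ks₀ rows = true) (k s : ℕ) :
    iterH ph gl ge rows k s = iterG ph gl ge k s := by
  induction k generalizing s with
  | zero => rfl
  | succ k ih =>
    have e : iterH ph gl ge rows (k + 1) s = iterH ph gl ge rows k (ph.stepH gl ge rows s) := rfl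
    have e2 : iterG ph gl ge (k + 1) s = iterG ph gl ge k (ph.stepG gl ge s) := rfl
    have e3 : ph.stepH gl ge rows s = ph.stepG gl ge s := by
      unfold Phase.stepH Phase.stepG
      rw [Phase.parentR_eq h]
    rw [e, e2, ih, e3]

theorem run_of_beqH {ph : Phase} {gl ge : List Grp} {rows : List (List (ℕ × ℕ))} (h1 : ph.T.lats = grpRecs gl)
    (h2 : ph.T.edges = grpRecs ge) (h3 : grpOK ph.T.par.b ph.T.par.P gl = true) (h4 : grpOK ph.T.par.b ph.T.par.P ge = true)
    (h5 : planOK ph.ks₀ rows = true) {k s s' : ℕ}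
    (h : Nat.beq (iterH ph gl ge rows k s) s' = true) : iterSt ph k s = s' := by
  rw [iterH_eq _ _ h5] at h
  exact run_of_beqG h1 h2 h3 h4 h

theorem step_of_beqH {ph : Phase} {gl ge : List Grp} {rows : List (List (ℕ × ℕ))} (h1 : ph.T.lats = grpRecs gl)
    (h2 : ph.T.edges = grpRecs ge) (h3 : grpOK ph.T.par.b ph.T.par.P gl = true) (h4 : grpOK ph.T.par.b ph.T.par.P ge = true)
    (h5 : planOK ph.ks₀ rows = true) {s s' : ℕ}
    (h : Nat.beq (iterH ph gl ge rows 1 s) s' = true) : ph.step s = s' := by
  rw [iterH_eq _ _ h5] at h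
  exact step_of_beqG h1 h2 h3 h4 h

end Vale.Agent.Lib.P154B
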